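import Vale.Agent.P207.H387.K.Rec

/-!
# P207, THEOREM Q', LEMMA Q over the zoom data of general order, part 2: smooth sections have
values in the S-bundle at the points with a good forward orbit
-/

set_option linter.all false

open Metric Set Filter Topology
open scoped ContDiff Nat

noncomputable section

namespace Vale.Agent.P207.H387.K

open Vale.Agent.P207.H686 (ZDk Ch)
open Vale.Agent.P207.H387
open Vale.Agent.P207.H387.SBd (eval_bound smooth_eval ev_sub unif_of_bound)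
open Vale.Agent.P207.H7 (iter_comp_right iter_comp_left iter_eval)
open Vale.Agent.P207.N3.H790 (tay ray_taylor)
open Vale.Agent.P207.H106.K (Orb)

variable {k0 : ℕ} {E W X : Type} [NormedAddCommGroup E] [NormedSpace ℝ E] [FiniteDimensional ℝ E]
  [NormedAddCommGroup W] [NormedSpace ℝ W] [FiniteDimensional ℝ W]

namespace SBk

variable {D : ZDk k0 E W X} (H : SBk D)

include H in
/-- compactness of frames and polynomials -/
theorem extract {k : ℕ} (w : ℕ → X) (p : ℕ → Cf E W k) (h1 : ∀ n, ‖p n‖ = 1) (h2 : ∀ n, Sy (p n))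
    (h3 : ∀ n, psh (prj (D.Sm (w n))) (ContinuousLinearMap.id ℝ E) (p n) = p n) :
    ∃ (w' : X) (θ : ℕ → ℕ) (p' : Cf E W k), StrictMono θ ∧
      TendstoUniformlyOn (fun n => D.N (w (θ n))) (D.N w') atTop (ball 0 1) ∧
      Tendsto (fun n => p (θ n)) atTop (𝓝 p') ∧ ‖p'‖ = 1 ∧ Sy p' ∧
      ∀ x, ev p' x ∈ D.Sm w' → ev p' x = 0 := by
  haveI hfW : ∀ j : Fin k, FiniteDimensional ℝ (E [×(j : ℕ)]→L[ℝ] W) := fun j => finDim_cmm _
  haveI hpW : ∀ j : Fin k, ProperSpace (E [×(j : ℕ)]→L[ℝ] W) := fun j => FiniteDimensional.proper ℝ _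
  obtain ⟨w', ψ, hψ, hN⟩ := D.cpt w
  have hs : ∀ n, p (ψ n) ∈ sphere (0 : Cf E W k) 1 := fun n => by
    rw [mem_sphere_zero_iff_norm]; exact h1 _
  obtain ⟨p', hp', χ, hχ, hlim⟩ := (isCompact_sphere (0 : Cf E W k) 1).tendsto_subseq hs
  have hN' : TendstoUniformlyOn (fun n => D.N (w (ψ (χ n)))) (D.N w') atTop (ball 0 1) :=
    fun u hu => hχ.tendsto_atTop.eventually (hN u hu)
  have hlim' : Tendsto (fun n => p (ψ (χ n))) atTop (𝓝 p') := hlim
  refine ⟨w', ψ ∘ χ, p', hψ.comp hχ, hN', hlim', ?_, Sy.limit hlim' fun n => h2 _, fun x hx => ?_⟩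
  · rwa [mem_sphere_zero_iff_norm] at hp'
  · refine perp_limit (S := fun n => D.Sm (w (ψ (χ n)))) (fun n => H.rank _ _) ?_
      (w := fun n => ev (p (ψ (χ n))) x) (fun n => ?_) (tendsto_ev hlim' x) hx
    · intro ψ' hψ' s t hs ht
      exact H.closed (fun n => w (ψ (χ (ψ' n)))) w'
        (fun u hu => hψ'.tendsto_atTop.eventually (hN' u hu)) s t hs ht
    · have := congrArg (fun c => ev c x) (h3 (ψ (χ n)))
      simp only [ev_psh] at this
      exact this

/-- uniform convergence of the pairings -/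
theorem unif_pair {k : ℕ} {w : ℕ → X} {w' : X} {p : ℕ → Cf E W k} {p' : Cf E W k}
    (hN : TendstoUniformlyOn (fun n => D.N (w n)) (D.N w') atTop (ball 0 1))
    (hp : Tendsto p atTop (𝓝 p')) :
    TendstoUniformlyOn (fun n x => D.N (w n) x (ev (p n) x)) (fun x => D.N w' x (ev p' x)) atTop
      (ball 0 1) := by
  rw [Metric.tendstoUniformlyOn_iff] at hN ⊢
  intro ε hε
  have hK : 0 ≤ D.K := (norm_nonneg _).trans (D.bd w' 0 (by simp))
  have hA : 0 < (k : ℝ) * ‖p'‖ + 1 := by positivity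
  have hB : 0 < D.K * k + 1 := by positivity
  have h1 := hN (ε / (2 * ((k : ℝ) * ‖p'‖ + 1))) (by positivity)
  have h2 : ∀ᶠ n in atTop, ‖p n - p'‖ < ε / (2 * (D.K * k + 1)) := by
    have := (Metric.tendsto_nhds.1 hp) (ε / (2 * (D.K * k + 1))) (by positivity)
    simpa [dist_eq_norm] using this
  filter_upwards [h1, h2] with n h1 h2 x hx
  have h3 := h1 x hx
  rw [dist_eq_norm] at h3 ⊢
  have hx1 : ‖x‖ ≤ 1 := (mem_ball_zero_iff.1 hx).le
  have e : D.N w' x (ev p' x) - D.N (w n) x (ev (p n) x) =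
      (D.N w' x - D.N (w n) x) (ev p' x) - D.N (w n) x (ev (p n - p') x) := by
    rw [ev_sub, map_sub, ContinuousLinearMap.sub_apply]
    ring
  rw [e]
  have a1 : ‖(D.N w' x - D.N (w n) x) (ev p' x)‖ ≤
      ε / (2 * ((k : ℝ) * ‖p'‖ + 1)) * ((k : ℝ) * ‖p'‖) := by
    refine (ContinuousLinearMap.le_opNorm _ _).trans ?_
    have := norm_ev_le p' hx1
    gcongr
  have a2 : ‖D.N (w n) x (ev (p n - p') x)‖ ≤ D.K * (k * (ε / (2 * (D.K * k + 1)))) := by
    refine (ContinuousLinearMap.le_opNorm _ _).trans ?_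
    have b1 := D.bd (w n) x hx
    have b2 := norm_ev_le (p n - p') hx1
    have b3 : (k : ℝ) * ‖p n - p'‖ ≤ k * (ε / (2 * (D.K * k + 1))) := by gcongr
    exact mul_le_mul b1 (b2.trans b3) (norm_nonneg _) hK
  have a3 : ε / (2 * ((k : ℝ) * ‖p'‖ + 1)) * ((k : ℝ) * ‖p'‖) < ε / 2 := by
    rw [div_mul_eq_mul_div, div_lt_div_iff₀ (by positivity) (by norm_num)]
    nlinarith [mul_nonneg (Nat.cast_nonneg (α := ℝ) k) (norm_nonneg p')]
  have a4 : D.K * (k * (ε / (2 * (D.K * k + 1)))) ≤ ε / 2 := by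
    have : D.K * (k * (ε / (2 * (D.K * k + 1)))) = (ε * (D.K * k)) / (2 * (D.K * k + 1)) := by
      field_simp
    rw [this, div_le_div_iff₀ (by positivity) (by norm_num)]
    nlinarith [mul_nonneg hK (Nat.cast_nonneg (α := ℝ) k)]
  calc _ ≤ ‖(D.N w' x - D.N (w n) x) (ev p' x)‖ + ‖D.N (w n) x (ev (p n - p') x)‖ :=
        norm_sub_le _ _
    _ < ε := by linarith

include H in
/-- the smooth part of a pairing -/
theorem ph_pair (i : ℕ) (M : ℕ → ℝ) : ∃ K : ℝ, ∀ (v : X) (σ : E → W) (ρ : ℝ), ρ ≤ 1 →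
    ContDiffOn ℝ ∞ σ (ball 0 ρ) → (∀ j, ∀ x ∈ ball (0 : E) ρ, ‖iteratedFDeriv ℝ j σ x‖ ≤ M j) →
    SD i K ρ (fun x => Ph D v x (σ x)) := by
  obtain ⟨Cp, hCp, hPb⟩ := H.Ph_bound
  refine ⟨∑ j ∈ Finset.range (i + 1), (i.choose j : ℝ) * Cp j * M (i - j),
    fun v σ ρ hρ1 hσ hM => ?_⟩
  have h1 : ContDiffOn ℝ ∞ (Ph D v) (ball 0 ρ) := (Ph_smooth v).mono (ball_subset_ball hρ1)
  exact ⟨smooth_eval h1 hσ, fun x hx => eval_bound isOpen_ball h1 hσ
    (fun j _ x hx => hPb v j x (ball_subset_ball hρ1 hx)) (fun j _ x hx => hM j x hx) hx⟩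

/-- the defect of the Taylor polynomial -/
theorem bracket {k : ℕ} {v : X} {σ : E → W} {P : Cf E W k} {y : E} {g δ m : ℝ}
    (hy : y ∈ ball (0 : E) 1) (h1 : ‖σ y - ev P y‖ ≤ m) (h2 : |D.N v y (σ y) - g| ≤ δ) :
    |D.N v y (prj (D.Sm v) (ev P y)) - (g - Ph D v y (σ y))| ≤ D.K * (cW W * m) + δ := by
  have hK : 0 ≤ D.K := (norm_nonneg _).trans (D.bd v y hy)
  have hc := one_le_cW W
  have e : D.N v y (prj (D.Sm v) (ev P y)) - (g - Ph D v y (σ y)) =
      (D.N v y (σ y) - g) - D.N v y (prj (D.Sm v) (σ y - ev P y)) := by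
    rw [Ph_apply, map_sub, map_sub]
    ring
  rw [e]
  have h3 : |D.N v y (prj (D.Sm v) (σ y - ev P y))| ≤ D.K * (cW W * m) := by
    have a1 := (D.N v y).le_opNorm (prj (D.Sm v) (σ y - ev P y))
    have a2 := (prj (D.Sm v)).le_opNorm (σ y - ev P y)
    have a3 := norm_prj_le (D.Sm v)
    have a4 := D.bd v y hy
    rw [Real.norm_eq_abs] at a1
    refine a1.trans (mul_le_mul a4 (a2.trans ?_) (norm_nonneg _) hK)
    exact mul_le_mul a3 h1 (norm_nonneg _) (by linarith)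
  have := abs_sub (D.N v y (σ y) - g) (D.N v y (prj (D.Sm v) (σ y - ev P y)))
  linarith


/-- the chains of an orbit -/
theorem orb_ch (O : Orb D.St) (n : ℕ) : Ch D.St (O.v 0) n (O.P n) (O.R n) (O.v n) := by
  induction n with
  | zero => exact Ch.zero _
  | succ n ih => exact Ch.succ ih (O.st n)

include H in
/-- **smooth sections with smooth pairing have values in the S-bundle** -/
theorem es {i : ℕ} (hok : Ok D 3 i) (O : Orb D.St) {C' la Lb : ℝ} (hO : O.Good C' la Lb)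
    {σ : E → W} {ρ : ℝ} (hρ : 0 < ρ) (hρ1 : ρ ≤ 1)
    (hσ : ContDiffOn ℝ ∞ σ (ball 0 ρ)) {M : ℕ → ℝ}
    (hM : ∀ j, ∀ x ∈ ball (0 : E) ρ, ‖iteratedFDeriv ℝ j σ x‖ ≤ M j) {f : ℕ → E → ℝ} {K0 : ℝ}
    (hf : ∀ n, SD i K0 ρ (f n))
    (hlim : TendstoUniformlyOn f (fun x => D.N (O.v 0) x (σ x)) atTop (ball 0 ρ)) :
    σ 0 ∈ D.Sm (O.v 0) := by
  set v : X := O.v 0 with hv
  have hC1 := hO.C1
  have hla0 := hO.la0
  have hla1 := hO.la1
  have hLb1 := hO.Lb1
  have hPb : ∀ (n : ℕ) (x : E), ‖(O.P n).symm x‖ ≤ C' * la ^ n * ‖x‖ := by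
    intro n x
    have h := hO.back 0 n x
    rw [zero_add] at h
    exact h
  have hRb : ∀ (n : ℕ) (s : W), ‖(O.R n).symm s‖ ≤ C' * Lb ^ n * ‖s‖ := by
    intro n s
    have h := hO.Rback 0 n s
    rw [zero_add] at h
    exact h
  by_contra hns
  have hs0 : 0 < ‖prj (D.Sm v) (σ 0)‖ := norm_pos_iff.2 fun h => hns (prj_eq_zero _ h)
  set s0 := ‖prj (D.Sm v) (σ 0)‖ with hs0def
  obtain ⟨KP, hKP⟩ := H.ph_pair i M
  have hg : ∀ m, SD i (K0 + KP) ρ (fun x => f m x - Ph D v x (σ x)) := fun m =>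
    (hf m).sub (hKP v σ ρ hρ1 hσ hM)
  have hK0 : 0 ≤ K0 + KP := (norm_nonneg _).trans ((hg 0).2 0 (mem_ball_self hρ))
  set K1 := K0 + KP with hK1
  set P : Cf E W 3 := tc 3 σ with hP
  have hPsy : Sy P := sy_tc 3 hρ hσ
  have hM3 : 0 ≤ M 3 := (norm_nonneg _).trans (hM 3 0 (mem_ball_self hρ))
  have hPt : ∀ x ∈ ball (0 : E) ρ, ‖σ x - ev P x‖ ≤ M 3 * ‖x‖ ^ 3 := fun x hx => by
    rw [hP, ev_tc]
    exact ray_taylor 3 hσ (hM 3) x hx
  have hP0 : ev P 0 = σ 0 := by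
    have := hPt 0 (mem_ball_self hρ)
    rw [norm_zero, zero_pow (by norm_num), mul_zero] at this
    exact (sub_eq_zero.1 (norm_le_zero_iff.1 this)).symm
  obtain ⟨K, hK, hrec⟩ := H.recur hok
  have hl0 := D.lam0
  have hl1 := D.lam1
  have hL1 := D.Lam1
  have hc := one_le_cW W
  have hDK : 0 ≤ D.K := (norm_nonneg _).trans (D.bd v 0 (by simp))
  obtain ⟨n0, hn0⟩ : ∃ n0 : ℕ, D.lam ^ n0 ≤ ρ := (exists_pow_lt_of_lt_one hρ hl1).imp fun _ h => h.le
  set A : ℕ → E ≃L[ℝ] E := fun n => O.P (n + n0) with hA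
  set L : ℕ → W ≃L[ℝ] W := fun n => O.R (n + n0) with hL
  set w : ℕ → X := fun n => O.v (n + n0) with hw
  have hch : ∀ n : ℕ, Ch D.St v (n + n0) (A n) (L n) (w n) := fun n => orb_ch O (n + n0)
  have hm : ∀ n : ℕ, ∃ m, ∀ x ∈ ball (0 : E) ρ, |D.N v x (σ x) - f m x| ≤ (la ^ 3) ^ (n + n0) := by
    intro n
    have := (Metric.tendstoUniformlyOn_iff.1 hlim) ((la ^ 3) ^ (n + n0)) (by positivity)
    obtain ⟨m, hm⟩ := this.exists
    exact ⟨m, fun x hx => (hm x hx).le⟩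
  choose m hm using hm
  have hlam : ∀ n : ℕ, D.lam ^ (n + n0) * 1 ≤ ρ := by
    intro n
    rw [mul_one]
    exact (pow_le_pow_of_le_one hl0.le hl1.le (Nat.le_add_left _ _)).trans hn0
  have hall := fun n => hrec (hch n) P 1 le_rfl (fun x => f (m n) x - Ph D v x (σ x)) K1 hK0
    ((hg (m n)).mono le_rfl (hlam n))
  choose G hGs hGe using hall
  set Q : ℕ → Cf E W 3 := fun n => pp D (A n) (L n) (w n) P with hQdef
  have hQ : ∀ n, s0 ≤ cW W * D.Lam ^ (n + n0) * ‖Q n‖ := by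
    intro n
    have h1 := H.prj_le (hch n) (σ 0)
    have h2 : ev (Q n) 0 = prj (D.Sm (w n)) (L n (σ 0)) := by
      rw [hQdef]
      simp only [ev_pp, map_zero, hP0]
    rw [← h2] at h1
    exact h1.trans (by gcongr; exact norm_ev_zero_le _)
  have hQpos : ∀ n, 0 < ‖Q n‖ := by
    intro n
    by_contra hn
    have h0 : ‖Q n‖ = 0 := le_antisymm (not_lt.1 hn) (norm_nonneg _)
    have := hQ n
    rw [h0, mul_zero] at this
    linarith
  have hQ' : ∀ n, s0 ≤ cW W * (C' * Lb ^ (n + n0)) * ‖Q n‖ := by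
    intro n
    have h4 : σ 0 - (L n).symm (prj (D.Sm (w n)) (L n (σ 0))) ∈ D.Sm v := by
      rw [H.ch_mem (hch n)]
      rw [map_sub, ContinuousLinearEquiv.apply_symm_apply]
      exact sub_prj_mem _ _
    have h5 := prj_mem _ h4
    rw [map_sub, sub_eq_zero] at h5
    have h2 : ev (Q n) 0 = prj (D.Sm (w n)) (L n (σ 0)) := by
      rw [hQdef]
      simp only [ev_pp, map_zero, hP0]
    rw [← h2] at h5
    rw [hs0def, h5]
    calc ‖prj (D.Sm v) ((L n).symm (ev (Q n) 0))‖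
        ≤ ‖prj (D.Sm v)‖ * ‖(L n).symm (ev (Q n) 0)‖ := (prj (D.Sm v)).le_opNorm _
      _ ≤ cW W * (C' * Lb ^ (n + n0) * ‖Q n‖) := by
          have h6 := norm_prj_le (D.Sm v)
          have h7 := hRb (n + n0) (ev (Q n) 0)
          have h8 : C' * Lb ^ (n + n0) * ‖ev (Q n) 0‖ ≤ C' * Lb ^ (n + n0) * ‖Q n‖ := by
            gcongr
            exact norm_ev_zero_le _
          exact mul_le_mul h6 (h7.trans h8) (norm_nonneg _) (by linarith)
      _ = _ := by ring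
  have hQinv' : ∀ n, ‖Q n‖⁻¹ ≤ cW W * (C' * Lb ^ (n + n0)) / s0 := by
    intro n
    have h1 : 1 ≤ cW W * (C' * Lb ^ (n + n0)) * ‖Q n‖ / s0 := (one_le_div hs0).2 (hQ' n)
    have h2 := hQpos n
    calc ‖Q n‖⁻¹ = ‖Q n‖⁻¹ * 1 := (mul_one _).symm
      _ ≤ ‖Q n‖⁻¹ * (cW W * (C' * Lb ^ (n + n0)) * ‖Q n‖ / s0) := by gcongr
      _ = cW W * (C' * Lb ^ (n + n0)) / s0 := by field_simp
  have hQinv : ∀ n, ‖Q n‖⁻¹ ≤ cW W * D.Lam ^ (n + n0) / s0 := by
    intro n
    have h1 : 1 ≤ cW W * D.Lam ^ (n + n0) * ‖Q n‖ / s0 := (one_le_div hs0).2 (hQ n)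
    have h2 := hQpos n
    calc ‖Q n‖⁻¹ = ‖Q n‖⁻¹ * 1 := (mul_one _).symm
      _ ≤ ‖Q n‖⁻¹ * (cW W * D.Lam ^ (n + n0) * ‖Q n‖ / s0) := by gcongr
      _ = cW W * D.Lam ^ (n + n0) / s0 := by field_simp
  set q : ℝ := la ^ 3 * Lb with hq
  have hq0 : 0 < q := by positivity
  have hq1 : q < 1 := hO.gap
  have hqn : ∀ n : ℕ, (la ^ 3) ^ (n + n0) * Lb ^ (n + n0) = q ^ (n + n0) := fun n => by
    rw [hq, mul_pow]
  set p : ℕ → Cf E W 3 := fun n => (‖Q n‖)⁻¹ • Q n with hp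
  have hp1 : ∀ n, ‖p n‖ = 1 := by
    intro n
    rw [hp]
    simp only [norm_smul, norm_inv, norm_norm]
    exact inv_mul_cancel₀ (hQpos n).ne'
  have hp2 : ∀ n, Sy (p n) := fun n => ((hPsy.psh _ _)).smul _
  have hp3 : ∀ n, psh (prj (D.Sm (w n))) (ContinuousLinearMap.id ℝ E) (p n) = p n := by
    intro n
    have h1 := pp_prj (D := D) (A n) (L n) (w n) P
    funext j
    have h2 := congrFun h1 j
    have h3 : psh (prj (D.Sm (w n))) (ContinuousLinearMap.id ℝ E) (p n) j =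
        ‖Q n‖⁻¹ • psh (prj (D.Sm (w n))) (ContinuousLinearMap.id ℝ E) (Q n) j := by
      ext u
      show prj (D.Sm (w n)) (‖Q n‖⁻¹ • (Q n j) fun a => (ContinuousLinearMap.id ℝ E) (u a)) = _
      rw [map_smul]
      rfl
    rw [h3]
    show ‖Q n‖⁻¹ • psh (prj (D.Sm (w n))) (ContinuousLinearMap.id ℝ E) (Q n) j = ‖Q n‖⁻¹ • Q n j
    rw [show psh (prj (D.Sm (w n))) (ContinuousLinearMap.id ℝ E) (Q n) j = Q n j from h2]
  obtain ⟨w', θ, p', hθ, hN, hpl, hp'1, hp'2, hperp⟩ := H.extract w p hp1 hp2 hp3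
  have hθn : ∀ n, n ≤ θ n := hθ.id_le
  have hqlim : Tendsto (fun n : ℕ => q ^ (θ n + n0)) atTop (𝓝 0) := by
    have h1 : Tendsto (fun n : ℕ => θ n + n0) atTop atTop :=
      tendsto_atTop_mono (fun n => (hθn n).trans (Nat.le_add_right _ _)) tendsto_id
    exact (tendsto_pow_atTop_nhds_zero_of_lt_one hq0.le hq1).comp h1
  -- the limit polynomial is constant
  have hconst : ∀ x ∈ ball (0 : E) 1, ev p' x = ev p' 0 := by
    intro x hx
    have hx1 : ‖x‖ ≤ 1 := (mem_ball_zero_iff.1 hx).le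
    have h1 : ∀ n, ‖ev (p n) x - ev (p n) 0‖ ≤
        (cW W * C' * (cW W * (C' * (dC 3 1 * ‖P‖ * C'))) / s0) * q ^ (n + n0) := by
      intro n
      have hd := dC_nonneg 3 1
      have e1 : ev (p n) x - ev (p n) 0 = ‖Q n‖⁻¹ • prj (D.Sm (w n)) (L n (ev P ((A n).symm x) - ev P 0)) := by
        rw [hp]
        simp only [ev_smul]
        rw [← smul_sub, hQdef]
        simp only [ev_pp, map_zero, map_sub]
      rw [e1, norm_smul, norm_inv, norm_norm]
      have hy : (A n).symm x ∈ ball (0 : E) 1 := by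
        rw [mem_ball_zero_iff]
        refine (ch_A (hch n) x).trans_lt ?_
        have h2 : D.lam ^ (n + n0) ≤ 1 := pow_le_one₀ hl0.le hl1.le
        calc D.lam ^ (n + n0) * ‖x‖ ≤ 1 * ‖x‖ := by gcongr
          _ < 1 := by rw [one_mul]; exact mem_ball_zero_iff.1 hx
      have h3 : ‖ev P ((A n).symm x) - ev P 0‖ ≤ dC 3 1 * ‖P‖ * (C' * la ^ (n + n0)) := by
        refine (ev_lip P hy).trans ?_
        have h4 : ‖(A n).symm x‖ ≤ C' * la ^ (n + n0) := by
          refine (hPb (n + n0) x).trans ?_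
          calc C' * la ^ (n + n0) * ‖x‖ ≤ C' * la ^ (n + n0) * 1 := by gcongr
            _ = _ := mul_one _
        gcongr
      have h4 : ‖prj (D.Sm (w n)) (L n (ev P ((A n).symm x) - ev P 0))‖ ≤
          cW W * (C' * la ^ (2 * (n + n0)) * (dC 3 1 * ‖P‖ * (C' * la ^ (n + n0)))) := by
        refine ((prj (D.Sm (w n))).le_opNorm _).trans ?_
        have a1 := norm_prj_le (D.Sm (w n))
        have a2 := hO.Rfor (n + n0) (ev P ((A n).symm x) - ev P 0)
        have a3 : C' * la ^ (2 * (n + n0)) * ‖ev P ((A n).symm x) - ev P 0‖ ≤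
          C' * la ^ (2 * (n + n0)) * (dC 3 1 * ‖P‖ * (C' * la ^ (n + n0))) := by gcongr
        exact mul_le_mul a1 (a2.trans a3) (norm_nonneg _) (by linarith)
      calc ‖Q n‖⁻¹ * ‖prj (D.Sm (w n)) (L n (ev P ((A n).symm x) - ev P 0))‖
          ≤ (cW W * (C' * Lb ^ (n + n0)) / s0) *
            (cW W * (C' * la ^ (2 * (n + n0)) * (dC 3 1 * ‖P‖ * (C' * la ^ (n + n0))))) := by
              have := hQinv' n
              have hn0' : 0 ≤ ‖Q n‖⁻¹ := by positivity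
              exact mul_le_mul this h4 (norm_nonneg _) (by positivity)
        _ = (cW W * C' * (cW W * (C' * (dC 3 1 * ‖P‖ * C'))) / s0) *
            ((la ^ 3) ^ (n + n0) * Lb ^ (n + n0)) := by
              have : la ^ (2 * (n + n0)) * la ^ (n + n0) = (la ^ 3) ^ (n + n0) := by
                rw [← pow_mul, ← pow_add]; congr 1; ring
              rw [← this]
              ring
        _ = _ := by rw [hqn]
    have h2 : Tendsto (fun n => ev (p (θ n)) x - ev (p (θ n)) 0) atTop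
        (𝓝 (ev p' x - ev p' 0)) := (tendsto_ev hpl x).sub (tendsto_ev hpl 0)
    have h3 : Tendsto (fun n => ev (p (θ n)) x - ev (p (θ n)) 0) atTop (𝓝 0) := by
      refine squeeze_zero_norm (fun n => h1 (θ n)) ?_
      have := hqlim.const_mul (cW W * C' * (cW W * (C' * (dC 3 1 * ‖P‖ * C'))) / s0)
      rwa [mul_zero] at this
    exact sub_eq_zero.1 (tendsto_nhds_unique h2 h3)
  -- the pairings with the limit form are smooth
  have hmem : ev p' 0 ∈ D.Sm w' := by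
    refine H.fin i w' (ev p' 0) (ball 0 1) (fun n x => ‖Q (θ n)‖⁻¹ * G (θ n) x)
      (cW W / s0 * K1 + K) hok.2.1 isOpen_ball Subset.rfl ⟨0, by simp⟩ (fun n => ?_) (fun n x hx => ?_) ?_
    · exact contDiffOn_const.mul (hGs (θ n)).1
    · have h1 := ((hGs (θ n)).smul (‖Q (θ n)‖⁻¹)).2 x hx
      refine h1.trans ?_
      have hpos := hQpos (θ n)
      rw [abs_of_nonneg (by positivity), mul_add]
      have h2 : ‖Q (θ n)‖⁻¹ * (K * ‖pp D (A (θ n)) (L (θ n)) (w (θ n)) P‖) = K := by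
        have : ‖pp D (A (θ n)) (L (θ n)) (w (θ n)) P‖ = ‖Q (θ n)‖ := rfl
        rw [this]
        field_simp
      rw [h2]
      have h3 : ‖Q (θ n)‖⁻¹ * ((D.lam ^ i) ^ (θ n + n0) * K1) ≤ cW W / s0 * K1 := by
        have h4 : D.lam ^ i * D.Lam ≤ 1 := by
          have e1 : D.Lam ≤ cW W * D.Lam * D.mu ^ 3 := by
            have e2 : (1 : ℝ) ≤ D.mu ^ 3 := one_le_pow₀ D.mu1
            calc D.Lam = 1 * D.Lam * 1 := by ring
              _ ≤ cW W * D.Lam * D.mu ^ 3 := by gcongr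
          calc D.lam ^ i * D.Lam ≤ D.lam ^ i * (cW W * D.Lam * D.mu ^ 3) := by gcongr
            _ ≤ 1 / 2 := hok.2.2.2
            _ ≤ 1 := by norm_num
        calc ‖Q (θ n)‖⁻¹ * ((D.lam ^ i) ^ (θ n + n0) * K1)
            ≤ (cW W * D.Lam ^ (θ n + n0) / s0) * ((D.lam ^ i) ^ (θ n + n0) * K1) := by
              have := hQinv (θ n)
              gcongr
          _ = cW W / s0 * K1 * (D.lam ^ i * D.Lam) ^ (θ n + n0) := by rw [mul_pow]; ring
          _ ≤ cW W / s0 * K1 * 1 := by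
              have : (D.lam ^ i * D.Lam) ^ (θ n + n0) ≤ 1 := pow_le_one₀ (by positivity) h4
              gcongr
          _ = cW W / s0 * K1 := mul_one _
      linarith
    · have hu := unif_pair hN hpl
      have hu' : TendstoUniformlyOn (fun n x => D.N (w (θ n)) x (ev (p (θ n)) x))
          (fun x => D.N w' x (ev p' 0)) atTop (ball 0 1) := by
        refine hu.congr_right fun x hx => ?_
        show D.N w' x (ev p' x) = D.N w' x (ev p' 0)
        rw [hconst x hx]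
      refine unif_of_bound (b := fun n => (cW W * C' * (D.K * (cW W * (M 3 * C' ^ 3)) + 1) / s0) *
        q ^ (θ n + n0)) ?_ (fun n x hx => ?_) hu'
      · have := hqlim.const_mul (cW W * C' * (D.K * (cW W * (M 3 * C' ^ 3)) + 1) / s0)
        rwa [mul_zero] at this
      · set N := θ n with hN'
        have hx1 : ‖x‖ ≤ 1 := (mem_ball_zero_iff.1 hx).le
        have hy : ‖(A N).symm x‖ ≤ C' * la ^ (N + n0) := by
          refine (hPb (N + n0) x).trans ?_
          calc C' * la ^ (N + n0) * ‖x‖ ≤ C' * la ^ (N + n0) * 1 := by gcongr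
            _ = _ := mul_one _
        have hyρ : (A N).symm x ∈ ball (0 : E) ρ := by
          rw [mem_ball_zero_iff]
          have hlt : ‖x‖ < 1 := mem_ball_zero_iff.1 hx
          calc ‖(A N).symm x‖ ≤ D.lam ^ (N + n0) * ‖x‖ := ch_A (hch N) x
            _ < D.lam ^ (N + n0) * 1 := by gcongr
            _ ≤ ρ := hlam N
        have hb := bracket (D := D) (P := P) (v := v) (σ := σ) (g := f (m N) ((A N).symm x))
          (δ := (la ^ 3) ^ (N + n0)) (m := M 3 * ‖(A N).symm x‖ ^ 3)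
          (ball_subset_ball hρ1 hyρ) (hPt _ hyρ) (hm N _ hyρ)
        have he := hGe N x hx
        have e1 : D.N (w N) x (ev (p N) x) = ‖Q N‖⁻¹ * D.N (w N) x (ev (Q N) x) := by
          rw [hp]
          simp only [ev_smul, map_smul, smul_eq_mul]
        have e2 : ‖Q N‖⁻¹ * G N x - D.N (w N) x (ev (p N) x) = - (‖Q N‖⁻¹ *
            (D.N v ((A N).symm x) (prj (D.Sm v) (ev P ((A N).symm x))) -
              (f (m N) ((A N).symm x) - Ph D v ((A N).symm x) (σ ((A N).symm x))))) := by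
          rw [e1]
          have : D.N (w N) x (ev (Q N) x) = _ := he
          rw [this]
          ring
        rw [e2, abs_neg, abs_mul, abs_of_nonneg (by have := hQpos N; positivity)]
        have h5 : ‖(A N).symm x‖ ^ 3 ≤ C' ^ 3 * (la ^ 3) ^ (N + n0) := by
          calc ‖(A N).symm x‖ ^ 3 ≤ (C' * la ^ (N + n0)) ^ 3 := by gcongr
            _ = C' ^ 3 * (la ^ 3) ^ (N + n0) := by
              rw [mul_pow, ← pow_mul, ← pow_mul, mul_comm (N + n0)]
        calc _ ≤ (cW W * (C' * Lb ^ (N + n0)) / s0) *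
              (D.K * (cW W * (M 3 * (C' ^ 3 * (la ^ 3) ^ (N + n0)))) + (la ^ 3) ^ (N + n0)) := by
              refine mul_le_mul (hQinv' N) (hb.trans ?_) (abs_nonneg _) (by positivity)
              gcongr
          _ = (cW W * C' * (D.K * (cW W * (M 3 * C' ^ 3)) + 1) / s0) *
              ((la ^ 3) ^ (N + n0) * Lb ^ (N + n0)) := by ring
          _ = _ := by rw [hqn]
  have hz : ev p' 0 = 0 := hperp 0 hmem
  have hz' : p' = 0 := eq_zero_of_ev hp'2 one_pos fun x hx => by rw [hconst x hx, hz]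
  rw [hz', norm_zero] at hp'1
  exact zero_ne_one hp'1

end SBk

end Vale.Agent.P207.H387.K
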