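import Vale.Agent.P207.H387.K.Es

/-!
# P207, THEOREM Q', LEMMA Q over the zoom data of general order, part 3: the gap
-/

set_option linter.all false

open Metric Set Filter Topology
open scoped ContDiff Nat

noncomputable section

namespace Vale.Agent.P207.H387.K

open Vale.Agent.P207.H686 (ZDk Ch)
open Vale.Agent.P207.H387
open Vale.Agent.P207.H387.SBd (eval_bound smooth_eval ev_sub unif_of_bound)
open Vale.Agent.P207.H7 (iter_comp_right iter_comp_left iter_eval)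
open Vale.Agent.P207.H106.K (Orb)

variable {k0 : ℕ} {E W X : Type} [NormedAddCommGroup E] [NormedSpace ℝ E] [FiniteDimensional ℝ E]
  [NormedAddCommGroup W] [NormedSpace ℝ W] [FiniteDimensional ℝ W]

/-- the points of the disc of `v` which have a good forward orbit (helper106's notion) -/
def Gd (D : ZDk k0 E W X) (v : X) : Set E :=
  {x0 | x0 ∈ ball (0 : E) 1 ∧ ∃ (R : E ≃L[ℝ] E) (S : W ≃L[ℝ] W) (Ob : Orb D.St) (C' la Lb : ℝ),
    D.BC v x0 R S (Ob.v 0) ∧ Ob.Good C' la Lb}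

/-- the good points are dense in every disc -/
def GD (D : ZDk k0 E W X) : Prop := ∀ v, ball (0 : E) 1 ⊆ closure (Gd D v)

theorem GD.open_sub {D : ZDk k0 E W X} (h : GD D) (v : X) {O : Set E} (hO : IsOpen O)
    (hO1 : O ⊆ ball 0 1) : O ⊆ closure (O ∩ Gd D v) := by
  intro x hx
  exact hO.inter_closure ⟨hx, h v (hO1 hx)⟩

/-- **(C1)** in the form which is used: helper106's theorem -/
theorem GD.c1 {D : ZDk k0 E W X} (h : GD D) (hk0 : 3 ≤ k0) {v : X} {O : Set E} (hO : IsOpen O)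
    (hO1 : O ⊆ ball 0 1) {σ : E → W} (hσ : ContDiffOn ℝ ∞ σ O)
    (hN : ContDiffOn ℝ ∞ (fun x => D.N v x (σ x)) O) {x : E} (hx : x ∈ O) : σ x ∈ D.Sm v := by
  refine H106.K.c1 hk0 D hO hO1 hσ hN (fun y hy => ?_) hx
  refine closure_mono ?_ (h.open_sub v hO hO1 hy)
  rintro z ⟨hz, -, h1⟩
  exact ⟨hz, h1⟩

namespace SBk

variable {D : ZDk k0 E W X} (H : SBk D)

include H in
/-- **the gap** -/
theorem gap (hd : GD D) {k i : ℕ} (hk : 3 ≤ k) (hok : Ok D k i) (K' : ℝ) : ∃ η : ℝ, 0 < η ∧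
    ∀ (v : X) (P : Cf E W k), Sy P → psh (prj (D.Sm v)) (ContinuousLinearMap.id ℝ E) P = P →
      ∀ (G : E → ℝ) (ε : ℝ), SD i (K' * ‖P‖) 1 G →
        (∀ x ∈ ball (0 : E) 1, |D.N v x (ev P x) - G x| ≤ ε) → η * ‖P‖ ≤ ε := by
  by_contra hcon
  push Not at hcon
  have hη : ∀ n : ℕ, (0 : ℝ) < 1 / ((n : ℝ) + 1) := fun n => by positivity
  choose v P hS hr G ε hG hb hlt using fun n : ℕ => hcon _ (hη n)
  have hε0 : ∀ n, 0 ≤ ε n := fun n => (abs_nonneg _).trans (hb n 0 (by simp))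
  have hP0 : ∀ n, 0 < ‖P n‖ := by
    intro n
    by_contra hn
    have h0 : ‖P n‖ = 0 := le_antisymm (not_lt.1 hn) (norm_nonneg _)
    have := hlt n
    rw [h0, mul_zero] at this
    exact absurd (hε0 n) (not_le.2 this)
  set p : ℕ → Cf E W k := fun n => ‖P n‖⁻¹ • P n with hp
  have hp1 : ∀ n, ‖p n‖ = 1 := by
    intro n
    rw [hp]
    simp only [norm_smul, norm_inv, norm_norm]
    exact inv_mul_cancel₀ (hP0 n).ne'
  obtain ⟨w', θ, p', hθ, hN, hpl, hp'1, hp'2, hperp⟩ := H.extract v p hp1 (fun n => (hS n).smul _)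
    (fun n => by rw [hp]; simp only [psh_smul]; rw [hr n])
  set F : ℕ → E → ℝ := fun n x => ‖P (θ n)‖⁻¹ * G (θ n) x with hF
  have hFs : ∀ n, SD i |K'| 1 (F n) := by
    intro n
    refine ((hG (θ n)).smul (‖P (θ n)‖⁻¹)).mono ?_ le_rfl
    have := hP0 (θ n)
    rw [abs_of_nonneg (by positivity)]
    have e : ‖P (θ n)‖⁻¹ * (K' * ‖P (θ n)‖) = K' := by field_simp
    rw [e]
    exact le_abs_self _
  have hFl : TendstoUniformlyOn F (fun x => D.N w' x (ev p' x)) atTop (ball 0 1) := by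
    refine unif_of_bound (b := fun n => 1 / ((n : ℝ) + 1)) tendsto_one_div_add_atTop_nhds_zero_nat
      (fun n x hx => ?_) (unif_pair hN hpl)
    have hpos := hP0 (θ n)
    have e1 : F n x - D.N (v (θ n)) x (ev (p (θ n)) x) = - (‖P (θ n)‖⁻¹ *
        (D.N (v (θ n)) x (ev (P (θ n)) x) - G (θ n) x)) := by
      rw [hF, hp]
      simp only [ev_smul, map_smul, smul_eq_mul]
      ring
    rw [e1, abs_neg, abs_mul, abs_of_nonneg (by positivity)]
    have h1 := hb (θ n) x hx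
    have h2 := (hlt (θ n)).le
    calc ‖P (θ n)‖⁻¹ * |D.N (v (θ n)) x (ev (P (θ n)) x) - G (θ n) x|
        ≤ ‖P (θ n)‖⁻¹ * (1 / ((θ n : ℝ) + 1) * ‖P (θ n)‖) := by
          gcongr
          exact h1.trans h2
      _ = 1 / ((θ n : ℝ) + 1) := by field_simp
      _ ≤ 1 / ((n : ℝ) + 1) := by
          have : (n : ℝ) ≤ (θ n : ℝ) := by exact_mod_cast hθ.id_le n
          gcongr
  have hgood : ∀ x0 ∈ Gd D w', ev p' x0 = 0 := by
    rintro x0 ⟨hx0, R, S, Ob, C', la, Lb, hBC, hOb⟩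
    refine hperp x0 ?_
    set v' : X := Ob.v 0 with hv'
    rw [H.bc hBC]
    have hKb : 0 < D.Kb := lt_of_lt_of_le one_pos D.Kb1
    have hx0' : 0 < 1 - ‖x0‖ := by
      have := mem_ball_zero_iff.1 hx0
      linarith
    set ρ : ℝ := min 1 ((1 - ‖x0‖) / D.Kb) with hρ
    have hρ0 : 0 < ρ := lt_min one_pos (by positivity)
    have hρ1 : ρ ≤ 1 := min_le_left _ _
    have hin : ∀ y ∈ ball (0 : E) ρ, x0 + R.symm y ∈ ball (0 : E) 1 := by
      intro y hy
      rw [mem_ball_zero_iff] at hy ⊢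
      have h1 := (D.BC_R hBC).2 y
      have h2 : ‖y‖ < (1 - ‖x0‖) / D.Kb := hy.trans_le (min_le_right _ _)
      rw [lt_div_iff₀ hKb] at h2
      calc ‖x0 + R.symm y‖ ≤ ‖x0‖ + ‖R.symm y‖ := norm_add_le _ _
        _ ≤ ‖x0‖ + D.Kb * ‖y‖ := by gcongr
        _ < 1 := by linarith
    obtain ⟨e, he, heb, heq⟩ := D.BC_N hBC
    have hsub : ball (0 : E) ρ ⊆ {x | x ∈ ball (0 : E) 1 ∧ x0 + R.symm x ∈ ball (0 : E) 1} :=
      fun y hy => ⟨ball_subset_ball hρ1 hy, hin y hy⟩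
    set σ : E → W := fun y => S (ev p' (x0 + R.symm y)) with hσ
    have hσs : ContDiff ℝ ∞ σ := by
      have h1 : ContDiff ℝ ∞ (fun y : E => x0 + R.symm y) := contDiff_const.add R.symm.contDiff
      exact S.contDiff.comp ((contDiff_ev p').comp h1)
    obtain ⟨M, hM⟩ := exists_bounds hσs ρ
    have hσ0 : σ 0 = S (ev p' x0) := by
      rw [hσ]
      simp
    rw [← hσ0]
    set U : Set E := {z | z + x0 ∈ ball (0 : E) 1} with hU
    have hUo : IsOpen U := isOpen_ball.preimage (by fun_prop)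
    have hmaps : MapsTo (R.symm : E →L[ℝ] E) (ball 0 ρ) U := by
      intro y hy
      show R.symm y + x0 ∈ ball (0 : E) 1
      rw [add_comm]
      exact hin y hy
    have hRn : ‖(R.symm : E →L[ℝ] E)‖ ≤ D.Kb :=
      ContinuousLinearMap.opNorm_le_bound _ hKb.le (D.BC_R hBC).2
    have hF1 : ∀ n, SD i (|K'| * D.Kb ^ i) ρ (fun y => F n (R.symm y + x0)) := by
      intro n
      have hs : ContDiffOn ℝ ∞ (fun z => F n (z + x0)) U :=
        (hFs n).1.comp (contDiff_id.add contDiff_const).contDiffOn (fun z hz => hz)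
      refine ⟨hs.comp (R.symm : E →L[ℝ] E).contDiff.contDiffOn hmaps, fun y hy => ?_⟩
      refine (iter_comp_right hUo (R.symm : E →L[ℝ] E) hs hmaps hy i).trans ?_
      rw [iteratedFDeriv_comp_add_right]
      have h1 := (hFs n).2 _ (hmaps hy)
      gcongr
    have he1 : SD i (∑ j ∈ Finset.range (i + 1), (i.choose j : ℝ) * D.M j * M (i - j)) ρ
        (fun y => e y (σ y)) := by
      have h1 : ContDiffOn ℝ ∞ e (ball 0 ρ) := he.mono hsub
      refine ⟨smooth_eval h1 hσs.contDiffOn, fun y hy => ?_⟩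
      exact eval_bound isOpen_ball h1 hσs.contDiffOn
        (fun j _ z hz => heb j z (hsub hz).1 (hsub hz).2) (fun j _ z hz => hM j z hz) hy
    refine H.es (hok.mono hk) Ob hOb hρ0 hρ1 hσs.contDiffOn hM (fun n => (hF1 n).add he1) ?_
    rw [Metric.tendstoUniformlyOn_iff] at hFl ⊢
    intro ε' hε'
    filter_upwards [hFl ε' hε'] with n hn y hy
    have h1 := hn _ (hin y hy)
    have h2 := heq y (hsub hy).1 (hsub hy).2 (ev p' (x0 + R.symm y))
    rw [Real.dist_eq] at h1 ⊢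
    have h3 : D.N v' y (σ y) = D.N w' (x0 + R.symm y) (ev p' (x0 + R.symm y)) + e y (σ y) := h2
    rw [h3]
    have h4 : R.symm y + x0 = x0 + R.symm y := add_comm _ _
    rw [h4]
    have h5 : D.N w' (x0 + R.symm y) (ev p' (x0 + R.symm y)) + e y (σ y) -
        (F n (x0 + R.symm y) + e y (σ y)) =
        D.N w' (x0 + R.symm y) (ev p' (x0 + R.symm y)) - F n (x0 + R.symm y) := by ring
    rw [h5]
    exact h1
  have hall : ∀ x0 ∈ ball (0 : E) 1, ev p' x0 = 0 := by
    intro x0 hx0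
    have hcl : IsClosed {x : E | ev p' x = 0} :=
      isClosed_eq (contDiff_ev p' (n := 1)).continuous continuous_const
    exact closure_minimal (fun x hx => hgood x hx) hcl (hd w' hx0)
  have hz : p' = 0 := eq_zero_of_ev hp'2 one_pos hall
  rw [hz, norm_zero] at hp'1
  exact zero_ne_one hp'1

end SBk

end Vale.Agent.P207.H387.K
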