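import Vale.Agent.P207.H387.LemQAt
import Vale.Agent.P207.H686.K.SB2
import Vale.Agent.P207.H106.SecK

/-!
# P207, THEOREM Q', LEMMA Q over the zoom data of general order, part 1: the recursion
-/

set_option linter.all false

open Metric Set Filter Topology
open scoped ContDiff Nat

noncomputable section

namespace Vale.Agent.P207.H387.K

open Vale.Agent.P207.H686 (ZDk Ch)
open Vale.Agent.P207.H387
open Vale.Agent.P207.H387.SBd (eval_bound smooth_eval)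
open Vale.Agent.P207.H7 (iter_comp_right iter_comp_left iter_eval)

variable {k0 : ℕ} {E W X : Type} [NormedAddCommGroup E] [NormedSpace ℝ E] [FiniteDimensional ℝ E]
  [NormedAddCommGroup W] [NormedSpace ℝ W] [FiniteDimensional ℝ W]

/-- the facts on the S-bundle which are used -/
structure SBk (D : ZDk k0 E W X) : Prop where
  rank : ∀ v w, Module.finrank ℝ (D.Sm v) = Module.finrank ℝ (D.Sm w)
  bound : ∃ C : ℕ → ℝ, (∀ k, 0 ≤ C k) ∧ ∀ v, ∀ s ∈ D.Sm v, ∀ k, ∀ x ∈ ball (0 : E) 1,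
    ‖iteratedFDeriv ℝ k (fun y => D.N v y s) x‖ ≤ C k * ‖s‖
  step : ∀ {v A L v'}, D.St v A L v' → ∀ s, (s ∈ D.Sm v ↔ L s ∈ D.Sm v')
  bc : ∀ {v p R S v'}, D.BC v p R S v' → ∀ s, (s ∈ D.Sm v ↔ S s ∈ D.Sm v')
  closed : ∀ (v : ℕ → X) (w : X), TendstoUniformlyOn (fun n => D.N (v n)) (D.N w) atTop (ball 0 1) →
    ∀ (s : ℕ → W) (t : W), (∀ n, s n ∈ D.Sm (v n)) → Tendsto s atTop (𝓝 t) → t ∈ D.Sm w
  fin : ∀ (k : ℕ) (v : X) (s : W) (O : Set E) (f : ℕ → E → ℝ) (K' : ℝ), k0 ≤ k → IsOpen O →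
    O ⊆ ball 0 1 → O.Nonempty → (∀ n, ContDiffOn ℝ ∞ (f n) O) →
    (∀ n, ∀ x ∈ O, ‖iteratedFDeriv ℝ k (f n) x‖ ≤ K') →
    TendstoUniformlyOn f (fun x => D.N v x s) atTop O → s ∈ D.Sm v
  L2 : ∀ {v A L v'}, D.St v A L v' → ∀ s, ‖L s‖ ≤ D.lam ^ 2 * ‖s‖

/-- helper686's theorems on the S-bundle -/
theorem sBk (D : ZDk k0 E W X) : SBk D where
  rank := D.sm_rank
  bound := D.sm_bound
  step := fun h s => D.sm_step h s
  bc := fun h s => D.sm_bc h s
  closed := fun v w h s t hs ht => D.sm_closed h hs ht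
  fin := fun k v s O f K' hk hO hsub hne hf hb hlim => D.sm_fin hk hO hsub hne f hf hb hlim
  L2 := fun h s => D.St_L' h s

namespace SBk

variable {D : ZDk k0 E W X} (H : SBk D)

/-- the smooth part of the tensor -/
def Ph (D : ZDk k0 E W X) (v : X) (x : E) : W →L[ℝ] ℝ :=
  (D.N v x) ∘L (ContinuousLinearMap.id ℝ W - prj (D.Sm v))

theorem Ph_apply (v : X) (x : E) (s : W) : Ph D v x s = D.N v x s - D.N v x (prj (D.Sm v) s) := by
  show D.N v x (s - prj (D.Sm v) s) = _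
  rw [map_sub]

theorem Ph_smooth (v : X) : ContDiffOn ℝ ∞ (Ph D v) (ball 0 1) := by
  rw [contDiffOn_clm_apply]
  intro s
  have h1 : s - prj (D.Sm v) s ∈ D.Sm v := sub_prj_mem _ s
  exact h1

include H in
theorem Ph_bound : ∃ C : ℕ → ℝ, (∀ k, 0 ≤ C k) ∧ ∀ v k, ∀ x ∈ ball (0 : E) 1,
    ‖iteratedFDeriv ℝ k (Ph D v) x‖ ≤ C k := by
  obtain ⟨C, hC, hb⟩ := H.bound
  have hc := one_le_cW W
  refine ⟨fun k => C k * (1 + cW W), fun k => mul_nonneg (hC k) (by linarith), fun v k x hx => ?_⟩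
  refine ContinuousMultilinearMap.opNorm_le_bound (mul_nonneg (hC k) (by linarith)) fun m => ?_
  refine ContinuousLinearMap.opNorm_le_bound _
    (mul_nonneg (mul_nonneg (hC k) (by linarith)) (Finset.prod_nonneg fun _ _ => norm_nonneg _))
    fun s => ?_
  have hat : ContDiffAt ℝ k (Ph D v) x :=
    ((Ph_smooth v).contDiffAt (isOpen_ball.mem_nhds hx)).of_le (by exact_mod_cast le_top)
  have h1 := (ContinuousLinearMap.apply ℝ ℝ s).iteratedFDeriv_comp_left hat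
    (i := k) le_rfl
  have h2 : (⇑(ContinuousLinearMap.apply ℝ ℝ s) ∘ Ph D v) =
      fun y => D.N v y (s - prj (D.Sm v) s) := rfl
  have h3 := hb v _ (sub_prj_mem (D.Sm v) s) k x hx
  rw [← h2, h1] at h3
  have h4 := (ContinuousMultilinearMap.le_opNorm
    ((ContinuousLinearMap.apply ℝ ℝ s).compContinuousMultilinearMap
      (iteratedFDeriv ℝ k (Ph D v) x)) m)
  have h5 : ‖s - prj (D.Sm v) s‖ ≤ (1 + cW W) * ‖s‖ := by
    refine (norm_sub_le _ _).trans ?_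
    have := (prj (D.Sm v)).le_opNorm s
    have h6 := norm_prj_le (D.Sm v)
    nlinarith [norm_nonneg s]
  have h7 : (iteratedFDeriv ℝ k (Ph D v) x m) s =
      ((ContinuousLinearMap.apply ℝ ℝ s).compContinuousMultilinearMap
        (iteratedFDeriv ℝ k (Ph D v) x)) m := rfl
  rw [h7]
  refine h4.trans ?_
  calc _ ≤ (C k * ‖s - prj (D.Sm v) s‖) * ∏ i, ‖m i‖ := by gcongr
    _ ≤ (C k * ((1 + cW W) * ‖s‖)) * ∏ i, ‖m i‖ := by
        have := hC k
        gcongr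
    _ = _ := by ring

include H in
/-- one step, for polynomial sections -/
theorem one_step (k i : ℕ) : ∃ C : ℝ, 0 ≤ C ∧ ∀ {v A L v'}, D.St v A L v' → ∀ q : Cf E W k,
    SD i (C * ‖q‖) 1 (fun x => D.N v' x (prj (D.Sm v') (L (ev q (A.symm x))))
      - D.N v (A.symm x) (ev q (A.symm x))) := by
  obtain ⟨C, hC, hb⟩ := H.Ph_bound
  set K : ℝ := ∑ j ∈ Finset.range (i + 1), (i.choose j : ℝ) * (|D.M j| + C j) * (dC k (i - j)) with hK
  have hK0 : 0 ≤ K := Finset.sum_nonneg fun j _ => by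
    have := hC j
    have := dC_nonneg k (i - j)
    positivity
  refine ⟨K, hK0, fun {v A L v'} hSt q => ?_⟩
  obtain ⟨e, he, heb, heq⟩ := D.St_N hSt
  set q' : Cf E W k := psh (L : W →L[ℝ] W) (A.symm : E →L[ℝ] E) q with hq'
  have hq'n : ‖q'‖ ≤ ‖q‖ := by
    have hl1 := D.lam1
    have hl0 := D.lam0
    have h1 : ‖(L : W →L[ℝ] W)‖ ≤ 1 := by
      refine ContinuousLinearMap.opNorm_le_bound _ zero_le_one fun s => ?_
      refine (H.L2 hSt s).trans ?_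
      have : D.lam ^ 2 ≤ 1 := pow_le_one₀ hl0.le hl1.le
      gcongr
    have h2 : ‖(A.symm : E →L[ℝ] E)‖ ≤ 1 := by
      refine ContinuousLinearMap.opNorm_le_bound _ zero_le_one fun s => ?_
      refine (D.St_A hSt s).trans ?_
      gcongr
    have := norm_psh_le h1 h2 le_rfl q
    simpa using this
  have hev : ∀ x, ev q' x = L (ev q (A.symm x)) := fun x => ev_psh _ _ q x
  have hfs : ContDiffOn ℝ ∞ (fun x => e x - Ph D v' x) (ball 0 1) := he.sub (Ph_smooth v')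
  have hfb : ∀ j ≤ i, ∀ x ∈ ball (0 : E) 1,
      ‖iteratedFDeriv ℝ j (fun x => e x - Ph D v' x) x‖ ≤ |D.M j| + C j := by
    intro j _ x hx
    have a1 : ContDiffAt ℝ j e x :=
      (he.contDiffAt (isOpen_ball.mem_nhds hx)).of_le (by exact_mod_cast le_top)
    have a2 : ContDiffAt ℝ j (Ph D v') x :=
      ((Ph_smooth v').contDiffAt (isOpen_ball.mem_nhds hx)).of_le (by exact_mod_cast le_top)
    have e2 : (fun x => e x - Ph D v' x) = e - Ph D v' := rfl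
    rw [e2, iteratedFDeriv_sub_apply a1 a2]
    exact (norm_sub_le _ _).trans (add_le_add ((heb j x hx).trans (le_abs_self _)) (hb v' j x hx))
  have hgb : ∀ j ≤ i, ∀ x ∈ ball (0 : E) 1,
      ‖iteratedFDeriv ℝ j (ev q') x‖ ≤ dC k j * ‖q‖ := by
    intro j _ x hx
    refine (iter_ev q' j (mem_ball_zero_iff.1 hx).le).trans ?_
    have := dC_nonneg k j
    gcongr
  have key : SD i (K * ‖q‖) 1 (fun x => (e x - Ph D v' x) (ev q' x)) := by
    refine ⟨smooth_eval hfs (contDiff_ev q').contDiffOn, fun x hx => ?_⟩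
    refine (eval_bound isOpen_ball hfs (contDiff_ev q').contDiffOn hfb hgb hx).trans (le_of_eq ?_)
    rw [hK, Finset.sum_mul]
    refine Finset.sum_congr rfl fun j _ => ?_
    ring
  refine key.congr fun x hx => ?_
  have h1 := heq x hx (ev q (A.symm x))
  have h2 := Ph_apply (D := D) v' x (L (ev q (A.symm x)))
  have h3 : (e x - Ph D v' x) (ev q' x) = e x (ev q' x) - Ph D v' x (ev q' x) := rfl
  rw [h3, hev, h2, h1]
  ring

/-- the pushed polynomial -/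
def pp (D : ZDk k0 E W X) {k : ℕ} (A : E ≃L[ℝ] E) (L : W ≃L[ℝ] W) (v' : X) (P : Cf E W k) :
    Cf E W k :=
  psh (prj (D.Sm v') ∘L (L : W →L[ℝ] W)) (A.symm : E →L[ℝ] E) P

theorem ev_pp {k : ℕ} (A : E ≃L[ℝ] E) (L : W ≃L[ℝ] W) (v' : X) (P : Cf E W k) (x : E) :
    ev (pp D A L v' P) x = prj (D.Sm v') (L (ev P (A.symm x))) := ev_psh _ _ _ _

theorem pp_prj {k : ℕ} (A : E ≃L[ℝ] E) (L : W ≃L[ℝ] W) (v' : X) (P : Cf E W k) :
    psh (prj (D.Sm v')) (ContinuousLinearMap.id ℝ E) (pp D A L v' P) = pp D A L v' P := by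
  unfold pp
  rw [psh_psh]
  congr 1
  ext s
  exact prj_prj _ _

include H in
theorem ch_mem {v : X} {n : ℕ} {A : E ≃L[ℝ] E} {L : W ≃L[ℝ] W} {v' : X}
    (h : Ch D.St v n A L v') (s : W) : s ∈ D.Sm v ↔ L s ∈ D.Sm v' := by
  induction h with
  | zero => exact Iff.rfl
  | succ h h' ih => exact ih.trans (H.step h' _)

include H in
/-- composition of a chain with a step -/
theorem pp_succ {k : ℕ} {v' : X} {A : E ≃L[ℝ] E} {L : W ≃L[ℝ] W} {A' : E ≃L[ℝ] E}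
    {L' : W ≃L[ℝ] W} {v'' : X} (h' : D.St v' A' L' v'') (P : Cf E W k) :
    pp D (A.trans A') (L.trans L') v'' P = pp D A' L' v'' (pp D A L v' P) := by
  unfold pp
  rw [psh_psh]
  congr 1
  ext s
  show prj (D.Sm v'') (L' (L s)) = prj (D.Sm v'') (L' (prj (D.Sm v') (L s)))
  have h1 : L' (L s - prj (D.Sm v') (L s)) ∈ D.Sm v'' := (H.step h' _).1 (sub_prj_mem _ _)
  have h2 := prj_mem _ h1
  rw [map_sub, map_sub, sub_eq_zero] at h2
  exact h2

include H in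
/-- the size of a pushed polynomial decreases at a bounded rate -/
theorem norm_le_pp {k : ℕ} {v' : X} {A' : E ≃L[ℝ] E} {L' : W ≃L[ℝ] W} {v'' : X}
    (h' : D.St v' A' L' v'') {Q : Cf E W k}
    (hQ : psh (prj (D.Sm v')) (ContinuousLinearMap.id ℝ E) Q = Q) :
    ‖Q‖ ≤ (cW W * D.Lam) * D.mu ^ k * ‖pp D A' L' v'' Q‖ := by
  have hc := one_le_cW W
  have hL1 := D.Lam1
  have h1 : psh (prj (D.Sm v') ∘L (L'.symm : W →L[ℝ] W)) (A' : E →L[ℝ] E) (pp D A' L' v'' Q) = Q := by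
    unfold pp
    rw [psh_psh]
    have h2 : (A'.symm : E →L[ℝ] E) ∘L (A' : E →L[ℝ] E) = ContinuousLinearMap.id ℝ E := by
      ext x
      simp
    have h3 : (prj (D.Sm v') ∘L (L'.symm : W →L[ℝ] W)) ∘L (prj (D.Sm v'') ∘L (L' : W →L[ℝ] W))
        = prj (D.Sm v') := by
      ext s
      show prj (D.Sm v') (L'.symm (prj (D.Sm v'') (L' s))) = prj (D.Sm v') s
      have h4 : s - L'.symm (prj (D.Sm v'') (L' s)) ∈ D.Sm v' := by
        rw [H.step h']
        rw [map_sub, ContinuousLinearEquiv.apply_symm_apply]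
        exact sub_prj_mem _ _
      have h5 := prj_mem _ h4
      rw [map_sub, sub_eq_zero] at h5
      exact h5.symm
    rw [h2, h3]
    exact hQ
  have hT : ‖prj (D.Sm v') ∘L (L'.symm : W →L[ℝ] W)‖ ≤ cW W * D.Lam := by
    refine (ContinuousLinearMap.opNorm_comp_le _ _).trans ?_
    have h6 : ‖(L'.symm : W →L[ℝ] W)‖ ≤ D.Lam :=
      ContinuousLinearMap.opNorm_le_bound _ (by linarith) (D.St_L h')
    have := norm_prj_le (D.Sm v')
    gcongr
  have hB : ‖(A' : E →L[ℝ] E)‖ ≤ D.mu :=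
    ContinuousLinearMap.opNorm_le_bound _ (by linarith [D.mu1]) (D.St_A' h')
  have := norm_psh_le hT hB D.mu1 (pp D A' L' v'' Q)
  rwa [h1] at this

/-- the orders of differentiation for which the recursion is bounded -/
def Ok (D : ZDk k0 E W X) (k i : ℕ) : Prop :=
  3 ≤ i ∧ k0 ≤ i ∧ k ≤ i ∧ D.lam ^ i * (cW W * D.Lam * D.mu ^ k) ≤ 1 / 2

theorem exists_ok (D : ZDk k0 E W X) (k : ℕ) : ∃ i, Ok D k i := by
  have h1 : Tendsto (fun i : ℕ => D.lam ^ i * (cW W * D.Lam * D.mu ^ k)) atTop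
      (𝓝 (0 * (cW W * D.Lam * D.mu ^ k))) :=
    (tendsto_pow_atTop_nhds_zero_of_lt_one D.lam0.le D.lam1).mul_const _
  rw [zero_mul] at h1
  have h2 := h1.eventually (ge_mem_nhds (show (0 : ℝ) < 1 / 2 by norm_num))
  obtain ⟨i, hi⟩ := (h2.and ((eventually_ge_atTop 3).and ((eventually_ge_atTop k0).and
    (eventually_ge_atTop k)))).exists
  exact ⟨i, hi.2.1, hi.2.2.1, hi.2.2.2, hi.1⟩

theorem Ok.mono {k k' i : ℕ} (h : Ok D k i) (hk : k' ≤ k) : Ok D k' i := by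
  refine ⟨h.1, h.2.1, hk.trans h.2.2.1, le_trans ?_ h.2.2.2⟩
  have h1 := D.mu1
  have h2 := one_le_cW W
  have h3 := D.Lam1
  have h4 := D.lam0
  have h5 : D.mu ^ k' ≤ D.mu ^ k := pow_le_pow_right₀ h1 hk
  gcongr

include H in
/-- **the recursion** -/
theorem recur {k i : ℕ} (hok : Ok D k i) : ∃ K : ℝ, 0 ≤ K ∧ ∀ {v : X} {n : ℕ} {A : E ≃L[ℝ] E}
    {L : W ≃L[ℝ] W} {v' : X}, Ch D.St v n A L v' → ∀ (P : Cf E W k) (ρ : ℝ), ρ ≤ 1 →
    ∀ (G0 : E → ℝ) (K0 : ℝ), 0 ≤ K0 → SD i K0 (D.lam ^ n * ρ) G0 →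
    ∃ G : E → ℝ, SD i ((D.lam ^ i) ^ n * K0 + K * ‖pp D A L v' P‖) ρ G ∧ ∀ x ∈ ball (0 : E) ρ,
      D.N v' x (ev (pp D A L v' P) x) =
        D.N v (A.symm x) (prj (D.Sm v) (ev P (A.symm x))) - G0 (A.symm x) + G x := by
  obtain ⟨C, hC, hst⟩ := H.one_step k i
  set C1 : ℝ := cW W * D.Lam * D.mu ^ k with hC1
  have hC10 : 0 ≤ C1 := by
    have h1 := D.mu1
    have h2 := one_le_cW W
    have h3 := D.Lam1
    positivity
  refine ⟨2 * (C * C1), by positivity, ?_⟩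
  intro v n A L v' hch
  induction hch with
  | zero =>
    intro P ρ hρ G0 K0 hK0 hG
    refine ⟨G0, ?_, fun x hx => ?_⟩
    · refine (hG.mono ?_ (by simp)).mono (le_refl _) le_rfl
      have : 0 ≤ 2 * (C * C1) * ‖pp D (ContinuousLinearEquiv.refl ℝ E)
        (ContinuousLinearEquiv.refl ℝ W) v P‖ := by positivity
      simp only [pow_zero, one_mul]
      linarith
    · rw [ev_pp]
      simp
  | @succ n A L v' A' L' v'' h h' ih =>
    intro P ρ hρ G0 K0 hK0 hG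
    have hl0 := D.lam0
    have hl1 := D.lam1
    have hρ' : D.lam * ρ ≤ 1 := by
      rcases le_or_gt 0 ρ with h0 | h0
      · nlinarith
      · nlinarith
    have hG' : SD i K0 (D.lam ^ n * (D.lam * ρ)) G0 := by
      have : D.lam ^ n * (D.lam * ρ) = D.lam ^ (n + 1) * ρ := by ring
      rwa [this]
    obtain ⟨G, hGs, hGe⟩ := ih P (D.lam * ρ) hρ' G0 K0 hK0 hG'
    set Q := pp D A L v' P with hQ
    have hQn : ‖Q‖ ≤ C1 * ‖pp D A' L' v'' Q‖ := H.norm_le_pp h' (pp_prj A L v' P)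
    have hsucc : pp D (A.trans A') (L.trans L') v'' P = pp D A' L' v'' Q := H.pp_succ h' P
    have hs := hst h' Q
    set Hs : E → ℝ := fun x => D.N v'' x (prj (D.Sm v'') (L' (ev Q (A'.symm x))))
      - D.N v' (A'.symm x) (ev Q (A'.symm x)) with hHs
    have hcomp : SD i (D.lam ^ i * ((D.lam ^ i) ^ n * K0 + 2 * (C * C1) * ‖Q‖)) ρ
        (fun x => G ((A'.symm : E →L[ℝ] E) x)) :=
      hGs.comp (by positivity) hl0 (D.St_A h')
    refine ⟨fun x => G (A'.symm x) + Hs x, ?_, fun x hx => ?_⟩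
    · refine (hcomp.add (hs.mono le_rfl hρ)).mono ?_ le_rfl
      rw [hsucc]
      have h1 : D.lam ^ i * C1 ≤ 1 / 2 := hok.2.2.2
      have h2 : 0 ≤ ‖pp D A' L' v'' Q‖ := norm_nonneg _
      have h3 : 0 ≤ D.lam ^ i := by positivity
      calc D.lam ^ i * ((D.lam ^ i) ^ n * K0 + 2 * (C * C1) * ‖Q‖) + C * ‖Q‖
          = (D.lam ^ i) ^ (n + 1) * K0 + (D.lam ^ i * (2 * (C * C1)) + C) * ‖Q‖ := by ring
        _ ≤ (D.lam ^ i) ^ (n + 1) * K0 + (D.lam ^ i * (2 * (C * C1)) + C) *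
            (C1 * ‖pp D A' L' v'' Q‖) := by gcongr
        _ = (D.lam ^ i) ^ (n + 1) * K0 + ((D.lam ^ i * C1) * (2 * (C * C1)) + C * C1) *
            ‖pp D A' L' v'' Q‖ := by ring
        _ ≤ (D.lam ^ i) ^ (n + 1) * K0 + ((1 / 2) * (2 * (C * C1)) + C * C1) *
            ‖pp D A' L' v'' Q‖ := by gcongr
        _ = (D.lam ^ i) ^ (n + 1) * K0 + 2 * (C * C1) * ‖pp D A' L' v'' Q‖ := by ring
    · have hy : A'.symm x ∈ ball (0 : E) (D.lam * ρ) := by
        rw [mem_ball_zero_iff] at hx ⊢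
        exact (D.St_A h' x).trans_lt (by gcongr)
      have h1 := hGe _ hy
      rw [hsucc, ev_pp]
      have h2 : (A.trans A').symm x = A.symm (A'.symm x) := rfl
      have h3 : Hs x = D.N v'' x (prj (D.Sm v'') (L' (ev Q (A'.symm x))))
        - D.N v' (A'.symm x) (ev Q (A'.symm x)) := rfl
      have h4 : (fun x => G (A'.symm x) + Hs x) x = G (A'.symm x) + Hs x := rfl
      rw [h2, h4, h3, h1]
      ring

/-! ### norms along chains -/

theorem ch_A {v : X} {n : ℕ} {A : E ≃L[ℝ] E} {L : W ≃L[ℝ] W} {v' : X}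
    (h : Ch D.St v n A L v') (x : E) : ‖A.symm x‖ ≤ D.lam ^ n * ‖x‖ := by
  induction h generalizing x with
  | zero => simp
  | @succ n A L v' A' L' v'' h h' ih =>
    have hl := D.lam0
    calc ‖A.symm (A'.symm x)‖ ≤ D.lam ^ n * ‖A'.symm x‖ := ih _
      _ ≤ D.lam ^ n * (D.lam * ‖x‖) := by
          gcongr
          exact D.St_A h' x
      _ = D.lam ^ (n + 1) * ‖x‖ := by ring

theorem ch_Ls {v : X} {n : ℕ} {A : E ≃L[ℝ] E} {L : W ≃L[ℝ] W} {v' : X}
    (h : Ch D.St v n A L v') (s : W) : ‖L.symm s‖ ≤ D.Lam ^ n * ‖s‖ := by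
  induction h generalizing s with
  | zero => simp
  | @succ n A L v' A' L' v'' h h' ih =>
    have hl := D.Lam1
    calc ‖L.symm (L'.symm s)‖ ≤ D.Lam ^ n * ‖L'.symm s‖ := ih _
      _ ≤ D.Lam ^ n * (D.Lam * ‖s‖) := by
          gcongr
          exact D.St_L h' s
      _ = D.Lam ^ (n + 1) * ‖s‖ := by ring

include H in
theorem ch_L {v : X} {n : ℕ} {A : E ≃L[ℝ] E} {L : W ≃L[ℝ] W} {v' : X}
    (h : Ch D.St v n A L v') (s : W) : ‖L s‖ ≤ (D.lam ^ 2) ^ n * ‖s‖ := by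
  induction h with
  | zero => simp
  | @succ n A L v' A' L' v'' h h' ih =>
    have hl := D.lam0
    calc ‖L' (L s)‖ ≤ D.lam ^ 2 * ‖L s‖ := H.L2 h' _
      _ ≤ D.lam ^ 2 * ((D.lam ^ 2) ^ n * ‖s‖) := by gcongr
      _ = (D.lam ^ 2) ^ (n + 1) * ‖s‖ := by ring

include H in
/-- lower bound of the pushed form, in the quotient -/
theorem prj_le {v : X} {n : ℕ} {A : E ≃L[ℝ] E} {L : W ≃L[ℝ] W} {v' : X}
    (h : Ch D.St v n A L v') (s : W) :
    ‖prj (D.Sm v) s‖ ≤ cW W * D.Lam ^ n * ‖prj (D.Sm v') (L s)‖ := by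
  have h4 : s - L.symm (prj (D.Sm v') (L s)) ∈ D.Sm v := by
    rw [H.ch_mem h]
    rw [map_sub, ContinuousLinearEquiv.apply_symm_apply]
    exact sub_prj_mem _ _
  have h5 := prj_mem _ h4
  rw [map_sub, sub_eq_zero] at h5
  rw [h5]
  have hc := one_le_cW W
  calc ‖prj (D.Sm v) (L.symm (prj (D.Sm v') (L s)))‖
      ≤ ‖prj (D.Sm v)‖ * ‖L.symm (prj (D.Sm v') (L s))‖ := (prj (D.Sm v)).le_opNorm _
    _ ≤ cW W * (D.Lam ^ n * ‖prj (D.Sm v') (L s)‖) := by
        have h6 := norm_prj_le (D.Sm v)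
        have h7 := ch_Ls h (prj (D.Sm v') (L s))
        gcongr
    _ = _ := by ring

theorem exists_ch (v : X) (n : ℕ) : ∃ A L v', Ch D.St v n A L v' := by
  induction n with
  | zero => exact ⟨_, _, v, Ch.zero v⟩
  | succ n ih =>
    obtain ⟨A, L, v', h⟩ := ih
    obtain ⟨A', L', v'', h'⟩ := D.St_next v'
    exact ⟨_, _, v'', Ch.succ h h'⟩

end SBk

end Vale.Agent.P207.H387.K
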